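import Mathlib

/-! P292 K/SkewX: the determinant of a skew matrix is a square (helper for K/Skew). -/

open Set Matrix

namespace Vale.Agent.P292

variable {K : Type} [Field K]

theorem ksk_blk {ι : Type} [Fintype ι] [DecidableEq ι] (B : Matrix (Fin 2 ⊕ ι) (Fin 2 ⊕ ι) K)
    (h : Bᵀ = -B) {a : K} (ha : a ≠ 0) (hd : B.toBlocks₁₁.det = a * a) :
    ∃ C : Matrix ι ι K, Cᵀ = -C ∧ B.det = a * a * C.det := by
  have hu : IsUnit B.toBlocks₁₁.det := by
    rw [hd]
    exact (mul_ne_zero ha ha).isUnit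
  letI := B.toBlocks₁₁.invertibleOfIsUnitDet hu
  have e : ∀ x y, B y x = -B x y := fun x y => congrFun (congrFun h x) y
  have h11 : B.toBlocks₁₁ᵀ = -B.toBlocks₁₁ := by
    ext x y
    exact e _ _
  have h12 : B.toBlocks₁₂ᵀ = -B.toBlocks₂₁ := by
    ext x y
    exact e _ _
  have h21 : B.toBlocks₂₁ᵀ = -B.toBlocks₁₂ := by
    ext x y
    exact e _ _
  have h22 : B.toBlocks₂₂ᵀ = -B.toBlocks₂₂ := by
    ext x y
    exact e _ _
  have hi : (⅟B.toBlocks₁₁)ᵀ = -⅟B.toBlocks₁₁ := by
    rw [invOf_eq_nonsing_inv, transpose_nonsing_inv, h11]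
    refine inv_eq_left_inv ?_
    rw [neg_mul_neg, nonsing_inv_mul _ hu]
  refine ⟨B.toBlocks₂₂ - B.toBlocks₂₁ * ⅟B.toBlocks₁₁ * B.toBlocks₁₂, ?_, ?_⟩
  · rw [transpose_sub, transpose_mul, transpose_mul, h12, h21, h22, hi]
    simp only [Matrix.neg_mul, Matrix.mul_neg, neg_neg, Matrix.mul_assoc]
    abel
  · rw [← hd, ← det_fromBlocks₁₁, fromBlocks_toBlocks]

theorem ksk_main [CharZero K] (n : ℕ) : ∀ (ι : Type) [Fintype ι] [DecidableEq ι],
    Fintype.card ι = n → ∀ A : Matrix ι ι K, Aᵀ = -A → IsSquare A.det := by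
  induction n using Nat.strong_induction_on with
  | _ n ih =>
    intro ι _ _ hn A h
    have e : ∀ x y, A y x = -A x y := fun x y => congrFun (congrFun h x) y
    have e0 : ∀ x, A x x = 0 := fun x => CharZero.eq_neg_self_iff.1 (e x x)
    by_cases h0 : A = 0
    · rcases isEmpty_or_nonempty ι with hι | hι
      · rw [det_isEmpty]
        exact ⟨1, (mul_one _).symm⟩
      · rw [h0, det_zero]
        exact ⟨0, (mul_zero _).symm⟩
    obtain ⟨i, j, hij⟩ : ∃ i j, A i j ≠ 0 := by
      by_contra hc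
      exact h0 (Matrix.ext fun i j => not_not.1 fun h' => hc ⟨i, j, h'⟩)
    have hne : i ≠ j := fun e1 => hij (e1 ▸ e0 i)
    have hinj : Function.Injective ![i, j] := by
      intro x y hxy
      fin_cases x <;> fin_cases y
      · rfl
      · exact absurd hxy hne
      · exact absurd hxy hne.symm
      · rfl
    classical
    let q : Fin 2 ⊕ {x // x ∉ range ![i, j]} ≃ ι :=
      (Equiv.sumCongr (Equiv.ofInjective _ hinj) (Equiv.refl _)).trans
        (Equiv.sumCompl (· ∈ range ![i, j]))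
    have q0 : q (Sum.inl 0) = i := rfl
    have q1 : q (Sum.inl 1) = j := rfl
    obtain ⟨C, hC, hd⟩ := ksk_blk (A.submatrix q q) (by
      ext x y
      exact e _ _) hij (by
      rw [det_fin_two]
      simp only [toBlocks₁₁, of_apply, submatrix_apply, q0, q1, e0, e i j]
      ring)
    rw [det_submatrix_equiv_self] at hd
    have hc := Fintype.card_congr q
    rw [Fintype.card_sum, Fintype.card_fin] at hc
    obtain ⟨c, hc'⟩ := ih _ (by omega) _ rfl C hC
    exact ⟨A i j * c, by rw [hd, hc']; ring⟩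

end Vale.Agent.P292
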